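import Vale.Agent.P207.N3.H254.XY

/-!
# P207, line N3, package P10: (R2)

`S`, `S'` are the two sides of a closed orbit with `λ₁ = κ > ℓ = λ₂`. If `T'_22` is smooth, then
`X'_1` is smooth.
-/

open AddMonoidAlgebra Finset Sum

set_option linter.unusedSectionVars false

namespace Vale.Agent.P207.N3.H575

open Vale.Agent.P207.N3.H254

variable {Y X : Type*} {K : ℕ} {κ ℓ h W : ℝ}

/-! ### Labels -/

theorem lab_lt (hℓ : 0 < ℓ) (hκ : ℓ < κ) {a : ℕ × ℕ} (ha : κ * a.1 + ℓ * a.2 < κ) :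
    a.1 = 0 := by
  by_contra h1
  have h2 : (1 : ℝ) ≤ a.1 := by exact_mod_cast Nat.one_le_iff_ne_zero.2 h1
  have h3 : (0 : ℝ) ≤ a.2 := Nat.cast_nonneg _
  nlinarith

theorem lab_le (hℓ : 0 < ℓ) (hκ : ℓ < κ) {a : ℕ × ℕ} (ha : κ * a.1 + ℓ * a.2 ≤ κ) :
    a.1 = 0 ∨ a = (1, 0) := by
  by_cases h1 : a.1 = 0
  · exact Or.inl h1
  right
  have h2 : (1 : ℝ) ≤ a.1 := by exact_mod_cast Nat.one_le_iff_ne_zero.2 h1
  have h3 : (0 : ℝ) ≤ a.2 := Nat.cast_nonneg _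
  have h4 : a.2 = 0 := by
    by_contra h5
    have h6 : (1 : ℝ) ≤ a.2 := by exact_mod_cast Nat.one_le_iff_ne_zero.2 h5
    nlinarith
  have h5 : a.1 = 1 := by
    by_contra h6
    have h7 : (2 : ℝ) ≤ a.1 := by
      have : 2 ≤ a.1 := by omega
      exact_mod_cast this
    nlinarith
  exact Prod.ext h5 h4

theorem lab_eq_n (hℓ : 0 < ℓ) {a : ℕ × ℕ} (h1 : a.1 = 0) {n : ℕ}
    (ha : κ * a.1 + ℓ * a.2 = n * ℓ) : a = (0, n) := by
  rw [h1, Nat.cast_zero, mul_zero, zero_add, mul_comm] at ha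
  exact Prod.ext h1 (by exact_mod_cast mul_right_cancel₀ hℓ.ne' ha)

theorem lab_lt_n (hℓ : 0 < ℓ) {a : ℕ × ℕ} (h1 : a.1 = 0) {n : ℕ}
    (ha : κ * a.1 + ℓ * a.2 < n * ℓ) : a.2 < n := by
  rw [h1, Nat.cast_zero, mul_zero, zero_add, mul_comm] at ha
  exact_mod_cast lt_of_mul_lt_mul_right ha hℓ.le

theorem lab_le_n (hℓ : 0 < ℓ) {a : ℕ × ℕ} (h1 : a.1 = 0) {n : ℕ}
    (ha : κ * a.1 + ℓ * a.2 ≤ n * ℓ) : a.2 ≤ n := by
  rw [h1, Nat.cast_zero, mul_zero, zero_add, mul_comm] at ha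
  exact_mod_cast le_of_mul_le_mul_right ha hℓ

theorem lab_pair {a : ℕ × ℕ} (h1 : a.1 = 0) : a = (0, a.2) := Prod.ext h1 rfl

/-! ### The leading coefficient of an `X`-jet -/

theorem cfQ (hℓ : 0 < ℓ) (hκ : ℓ ≤ κ) (S : Side K Y) {U : Subalgebra ℝ (Y → ℝ)} {a : ℕ × ℕ}
    (ha : 1 ≤ len a) (haK : len a ≤ K) {w : ℝ} (hw : κ * a.1 + ℓ * a.2 = w)
    (hT : ∀ c, 1 ≤ len c → wtl κ ℓ (inl c) ≤ w → S.v (inl c) ∈ U)
    (hX : ∀ c, 1 ≤ len c → len c < len a → wtl κ ℓ (inr c) ≤ w → S.v (inr c) ∈ U) :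
    cf (wtl κ ℓ) S.v (S.Q a) w - S.v (inr a) ∈ U := by
  classical
  have hprod : ∀ β ∈ (S.Q a).support, wm (wtl κ ℓ) β = w → β ≠ Finsupp.single (inr a) 1 →
      (vm S.v β : Y → ℝ) ∈ U := by
    intro β hβ hwβ hne
    rcases S.Q_supp a β hβ with h | h
    · exact absurd h hne
    · refine vm_mem (Subalgebra.toSubmodule U) U.one_mem (fun _ ha _ hb => U.mul_mem ha hb) _ _
        fun j hj => ?_
      have h3 := factor_le' hℓ (fun j hj => S.Q_wt (κ := κ) hℓ hκ hβ hj) hj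
      rcases h.2 j hj with ⟨b, rfl, h1, h2⟩ | ⟨b, rfl, h1, h2⟩
      · exact hT b h1 (by linarith)
      · exact hX b h1 h2 (by linarith)
  have hmem : Finsupp.single (inr a) 1 ∈
      (S.Q a).support.filter (fun β => wm (wtl κ ℓ) β = w) := by
    rw [Finset.mem_filter, MvPolynomial.mem_support_iff, S.Q_one a ha haK, wm_single, wtl_inr]
    exact ⟨one_ne_zero, hw⟩
  unfold cf
  rw [← Finset.add_sum_erase _ _ hmem, S.Q_one a ha haK, one_smul, vm_single,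
    add_sub_cancel_left]
  refine U.sum_mem fun β hβ => U.smul_mem ?_ _
  rw [Finset.mem_erase, Finset.mem_filter] at hβ
  exact hprod β hβ.2.1 hβ.2.2 hβ.1

/-! ### Regularity of the `X`-jets of weight `< κ` -/

theorem tn_zero_left {u : Y → ℝ} {v : X → ℝ} (hu : u = 0) : tn u v = 0 := by
  rw [hu]; funext z; show (0 : ℝ) * v z.2 = 0; ring

theorem stepA (hℓ : 0 < ℓ) (hκ : ℓ < κ) (hW : 2 * κ < W) {S : Side K Y} {S' : Side K X}
    {U : Subalgebra ℝ (Y → ℝ)} (H : TwoId κ ℓ h W S S') (hx : ∃ x, S'.v (inl (0, 1)) x ≠ 0) :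
    ∀ n : ℕ, 1 ≤ n → n ≤ K → n * ℓ < κ → (∀ a, 1 ≤ a → a ≤ n → S.v (inl (0, a)) ∈ U) →
      S.v (inr (0, n)) ∈ U := by
  classical
  intro n
  induction n using Nat.strong_induction_on with
  | _ n ih =>
    intro h1 hnK hn hT
    have hT1 : ∀ c, 1 ≤ len c → wtl κ ℓ (inl c) ≤ n * ℓ → S.v (inl c) ∈ U := by
      intro c hc hw
      rw [wtl_inl] at hw
      have c1 : c.1 = 0 := lab_lt hℓ hκ (by linarith)
      have c2 := lab_le_n hℓ c1 hw
      rw [lab_pair c1]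
      refine hT _ ?_ c2
      unfold len at hc
      omega
    have hX1 : ∀ c, 1 ≤ len c → wtl κ ℓ (inr c) < n * ℓ → S.v (inr c) ∈ U := by
      intro c hc hw
      rw [wtl_inr] at hw
      have c1 : c.1 = 0 := lab_lt hℓ hκ (by linarith)
      have c2 := lab_lt_n hℓ c1 hw
      have c3 : 1 ≤ c.2 := by
        unfold len at hc
        omega
      rw [lab_pair c1]
      refine ih c.2 c2 c3 (by omega) ?_ fun a ha1 ha2 => hT a ha1 (by omega)
      have : (c.2 : ℝ) ≤ n := by exact_mod_cast c2.le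
      nlinarith
    have h2 := xy_series (S := S) (S' := S') (U := U) hℓ hκ.le (by omega) h (w := n * ℓ)
      (w' := n * ℓ) hT1 hX1
    rw [H.coeff (by linarith), zero_sub, Submodule.neg_mem_iff] at h2
    have hfil : (tri K).filter (fun a => κ * a.1 + ℓ * a.2 = n * ℓ) = {(0, n)} := by
      ext a
      rw [Finset.mem_filter, Finset.mem_singleton, mem_tri]
      constructor
      · rintro ⟨-, ha⟩
        exact lab_eq_n hℓ (lab_lt hℓ hκ (by linarith)) ha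
      · rintro rfl
        refine ⟨by simp; omega, ?_⟩
        push_cast
        ring
    rw [hfil, Finset.sum_singleton] at h2
    have hf : fac (0, n) ≠ 0 := by
      unfold fac
      positivity
    have h3 : tn (cf (wtl κ ℓ) S.v (S.Q (0, n)) (n * ℓ))
        (mon (fun i => S'.v (inl (e i))) (0, n)) ∈
        sp (Subalgebra.toSubmodule U) (⊤ : Submodule ℝ (X → ℝ)) := by
      have := Submodule.smul_mem _ (fac (0, n))⁻¹ h2
      rwa [smul_smul, inv_mul_cancel₀ hf, one_smul] at this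
    obtain ⟨x, hx⟩ := hx
    have h4 : cf (wtl κ ℓ) S.v (S.Q (0, n)) (n * ℓ) ∈ Subalgebra.toSubmodule U := by
      refine left_mem h3 (x := x) ?_
      rw [mon_snd, e_one, Pi.pow_apply]
      exact pow_ne_zero _ hx
    have h5 := cfQ (K := K) hℓ hκ.le S (U := U) (a := (0, n)) (by show 1 ≤ 0 + n; omega)
      (by show 0 + n ≤ K; omega) (w := n * ℓ) (by push_cast; ring) hT1 (by
        intro c hc1 hc2 hc3
        rcases hc3.lt_or_eq with h6 | h6
        · exact hX1 c hc1 h6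
        · rw [wtl_inr] at h6
          have h7 := lab_eq_n hℓ (lab_lt hℓ hκ (by linarith)) h6
          rw [h7] at hc2
          exact absurd hc2 (lt_irrefl _))
    have h6 := U.sub_mem h4 h5
    rwa [sub_sub_cancel] at h6

/-! ### The functions of `y₂` -/

/-- The functions which depend on `y` only through `g y`. -/
def only (g : Y → ℝ) : Subalgebra ℝ (Y → ℝ) where
  carrier := {u | ∀ y y', g y = g y' → u y = u y'}
  mul_mem' := by
    intro a b ha hb y y' h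
    rw [Pi.mul_apply, Pi.mul_apply, ha y y' h, hb y y' h]
  add_mem' := by
    intro a b ha hb y y' h
    rw [Pi.add_apply, Pi.add_apply, ha y y' h, hb y y' h]
  algebraMap_mem' := by
    intro c y y' _
    rfl

theorem mem_only {g u : Y → ℝ} : u ∈ only g ↔ ∀ y y', g y = g y' → u y = u y' := Iff.rfl

/-- What is used about one side and the algebra of its regular functions. -/
structure Base (κ ℓ : ℝ) (S : Side K Y) (U : Subalgebra ℝ (Y → ℝ)) : Prop where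
  mem : ∀ i, S.v (inl (e i)) ∈ U
  p0 : ∃ y, S.v (inl (0, 1)) y ≠ 0
  p1 : ∃ y, S.v (inl (1, 0)) y ≠ 0 ∧ S.v (inl (0, 1)) y = 0
  p2 : ∃ y y', S.v (inl (0, 1)) y = S.v (inl (0, 1)) y' ∧
    S.v (inl (1, 0)) y ≠ S.v (inl (1, 0)) y'
  div : ∀ a : ℕ, 2 ≤ a → a * ℓ ≤ κ → ∀ j : ℕ,
    S.v (inl (0, a)) * S.v (inl (0, 1)) ^ j ∈ U → S.v (inl (0, a)) ∈ U
  hom : ∀ a : ℕ, 2 ≤ a → a * ℓ < κ → S.v (inl (0, a)) ∈ U → ∀ y y',
    S.v (inl (0, 1)) y = S.v (inl (0, 1)) y' → S.v (inl (0, a)) y = S.v (inl (0, a)) y'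

/-! ### The factor of `X'_1` -/

theorem fac_pos (a : ℕ × ℕ) : 0 < fac a := by
  unfold fac
  positivity

theorem DD_mem (S : Side K Y) (S' : Side K X) {U : Subalgebra ℝ (Y → ℝ)}
    (hU : ∀ i, S.v (inl (e i)) ∈ U) (w : ℝ) : DD κ ℓ S S' w ∈ U := by
  classical
  unfold DD
  refine U.sum_mem fun c _ => U.smul_mem ?_ _
  split_ifs
  · exact mon_memS U hU c
  · exact U.zero_mem

theorem mon_10 {R : Type*} [CommRing R] (π : Fin 2 → R) : mon π (1, 0) = π 0 := by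
  unfold mon; simp

/-- `D_κ = y₁` modulo the functions of `y₂`. -/
theorem DD_kappa (hℓ : 0 < ℓ) (hκ : ℓ < κ) (hK : 1 ≤ K) (S : Side K Y) (S' : Side K X) :
    DD κ ℓ S S' κ - S.v (inl (1, 0)) ∈ only (S.v (inl (0, 1))) := by
  classical
  have hmem : ((1, 0) : ℕ × ℕ) ∈ tri K := mem_tri.2 (by simpa using hK)
  have h1 : fac (1, 0) = 1 := by unfold fac; simp
  have h2 : mX S' (1, 0) = 1 := S'.Q_one (1, 0) (by decide) (by show 1 + 0 ≤ K; omega)
  unfold DD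
  rw [← Finset.add_sum_erase _ _ hmem, h1, h2]
  have h3 : κ * ((1, 0) : ℕ × ℕ).1 + ℓ * ((1, 0) : ℕ × ℕ).2 = κ := by push_cast; ring
  rw [if_pos h3, one_mul, one_smul, mon_10, e_zero, add_sub_cancel_left]
  refine Subalgebra.sum_mem _ fun c hc => Subalgebra.smul_mem _ ?_ _
  rw [Finset.mem_erase] at hc
  split_ifs with h4
  · rcases lab_le hℓ hκ h4.le with h5 | h5
    · rw [lab_pair h5, mon_snd, e_one]
      exact Subalgebra.pow_mem _ (mem_only.2 fun _ _ h => h) _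
    · exact absurd h5 hc.1
  · exact Subalgebra.zero_mem _

theorem DD_nin (hℓ : 0 < ℓ) (hκ : ℓ < κ) (hK : 1 ≤ K) {S : Side K Y} (S' : Side K X)
    {U : Subalgebra ℝ (Y → ℝ)} (B : Base κ ℓ S U) : DD κ ℓ S S' κ ∉ only (S.v (inl (0, 1))) := by
  intro h
  obtain ⟨y, y', h1, h2⟩ := B.p2
  have h3 := Subalgebra.sub_mem _ h (DD_kappa hℓ hκ hK S S')
  rw [sub_sub_cancel] at h3
  exact h2 (mem_only.1 h3 y y' h1)

end Vale.Agent.P207.N3.H575
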