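import Vale.Agent.P207.N3.H575.R2

/-!
# P207, line N3, package P10: (R2), the three cases
-/

open AddMonoidAlgebra Finset Sum

set_option linter.unusedSectionVars false

namespace Vale.Agent.P207.N3.H575

open Vale.Agent.P207.N3.H254

variable {Y X : Type*} {K : ℕ} {κ ℓ h W : ℝ}

/-- All `T`-jets of weight `≤ w` are regular. -/
theorem allT (hℓ : 0 < ℓ) (hκ : ℓ < κ) {S : Side K Y} {U : Subalgebra ℝ (Y → ℝ)}
    (hU : ∀ i, S.v (inl (e i)) ∈ U) {w : ℝ} (hw : w ≤ κ)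
    (hT : ∀ j : ℕ, 2 ≤ j → j * ℓ ≤ w → S.v (inl (0, j)) ∈ U) :
    ∀ c, 1 ≤ len c → wtl κ ℓ (inl c) ≤ w → S.v (inl c) ∈ U := by
  intro c hc h1
  rw [wtl_inl] at h1
  rcases lab_le hℓ hκ (h1.trans hw) with h2 | h2
  · rw [lab_pair h2]
    have h3 : 1 ≤ c.2 := by
      unfold len at hc
      omega
    rcases h3.lt_or_eq with h4 | h4
    · refine hT c.2 h4 ?_
      rw [h2, Nat.cast_zero, mul_zero, zero_add, mul_comm] at h1
      exact h1
    · rw [← h4]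
      exact hU 1
  · rw [h2]
    exact hU 0

/-- All `T`-jets `(0,j)`, `1 ≤ j ≤ n`. -/
theorem upT {S : Side K Y} {U : Subalgebra ℝ (Y → ℝ)} (hU : ∀ i, S.v (inl (e i)) ∈ U) {n : ℕ}
    (hT : ∀ j : ℕ, 2 ≤ j → j ≤ n → S.v (inl (0, j)) ∈ U) :
    ∀ j, 1 ≤ j → j ≤ n → S.v (inl (0, j)) ∈ U := by
  intro j h1 h2
  rcases h1.lt_or_eq with h4 | h4
  · exact hT j h4 h2
  · rw [← h4]
    exact hU 1

/-- All `X`-jets of weight `< w ≤ κ` are regular. -/
theorem allX (hℓ : 0 < ℓ) (hκ : ℓ < κ) (hW : 2 * κ < W) (hK : κ ≤ K * ℓ) {S : Side K Y}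
    {S' : Side K X} {U : Subalgebra ℝ (Y → ℝ)} (H : TwoId κ ℓ h W S S')
    (hx : ∃ x, S'.v (inl (0, 1)) x ≠ 0) (hU : S.v (inl (0, 1)) ∈ U) {w : ℝ} (hw : w ≤ κ)
    (hT : ∀ j : ℕ, 2 ≤ j → j * ℓ < w → S.v (inl (0, j)) ∈ U) :
    ∀ c, 1 ≤ len c → wtl κ ℓ (inr c) < w → S.v (inr c) ∈ U := by
  intro c hc h1
  rw [wtl_inr] at h1
  have h2 : c.1 = 0 := lab_lt hℓ hκ (h1.trans_le hw)
  have h3 : 1 ≤ c.2 := by
    unfold len at hc
    omega
  have h4 : (c.2 : ℝ) * ℓ < w := by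
    rw [h2, Nat.cast_zero, mul_zero, zero_add, mul_comm] at h1
    exact h1
  rw [lab_pair h2]
  refine stepA hℓ hκ hW H hx c.2 h3 ?_ (h4.trans_le hw) fun a h5 h6 => ?_
  · have : (c.2 : ℝ) * ℓ < K * ℓ := by linarith
    exact_mod_cast (lt_of_mul_lt_mul_right this hℓ.le).le
  · rcases h5.lt_or_eq with h7 | h7
    · refine hT a h7 ?_
      have : (a : ℝ) ≤ c.2 := by exact_mod_cast h6
      nlinarith
    · rw [← h7]
      exact hU

/-- **Case 1**: `κ = kℓ` and all the `T`-jets of `S` are regular. -/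
theorem caseB (hℓ : 0 < ℓ) (hκ : ℓ < κ) (hW : 2 * κ < W) (hK : κ ≤ K * ℓ) {S : Side K Y}
    {S' : Side K X} {U : Subalgebra ℝ (Y → ℝ)} (H : TwoId κ ℓ h W S S')
    (hU : ∀ i, S.v (inl (e i)) ∈ U) (hx : ∃ x, S'.v (inl (0, 1)) x ≠ 0)
    (hx1 : ∃ x, S'.v (inl (1, 0)) x ≠ 0 ∧ S'.v (inl (0, 1)) x = 0)
    (hT : ∀ j : ℕ, 2 ≤ j → j * ℓ ≤ κ → S.v (inl (0, j)) ∈ U) : S.v (inr (1, 0)) ∈ U := by
  classical
  have hK1 : 1 ≤ K := by
    by_contra h
    have h1 : K = 0 := by omega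
    rw [h1, Nat.cast_zero, zero_mul] at hK
    linarith
  have hT1 := allT (w := κ) hℓ hκ hU le_rfl hT
  have hX1 := allX (w := κ) hℓ hκ hW hK H hx (hU 1) le_rfl fun j h1 h2 => hT j h1 h2.le
  have h2 := xy_series (S := S) (S' := S') (U := U) hℓ hκ.le hK1 h (w := κ)
    (w' := κ) hT1 hX1
  rw [H.coeff (by linarith), zero_sub, Submodule.neg_mem_iff] at h2
  obtain ⟨x, hx0, hx2⟩ := hx1
  have h3 := appX_mem (LinearMap.proj x : (X → ℝ) →ₗ[ℝ] ℝ) h2
  rw [map_sum] at h3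
  have hmem : ((1, 0) : ℕ × ℕ) ∈ (tri K).filter (fun a => κ * a.1 + ℓ * a.2 = κ) := by
    rw [Finset.mem_filter]
    exact ⟨mem_tri.2 (by simpa using hK1), by push_cast; ring⟩
  rw [Finset.sum_eq_single_of_mem _ hmem] at h3
  · rw [map_smul, appX_tn, LinearMap.proj_apply, mon_10, smul_smul] at h3
    have h4 : cf (wtl κ ℓ) S.v (S.Q (1, 0)) κ ∈ U := by
      have h5 : fac (1, 0) * S'.v (inl (e 0)) x ≠ 0 :=
        mul_ne_zero (fac_pos _).ne' (by rw [e_zero]; exact hx0)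
      have := Submodule.smul_mem _ (fac (1, 0) * S'.v (inl (e 0)) x)⁻¹ h3
      rwa [smul_smul, inv_mul_cancel₀ h5, one_smul] at this
    have h5 := cfQ (K := K) hℓ hκ.le S (U := U) (a := (1, 0)) le_rfl hK1 (w := κ)
      (by push_cast; ring) hT1 (by
        intro c hc1 hc2 _
        have : len (1, 0) = 1 := rfl
        omega)
    have h6 := U.sub_mem h4 h5
    rwa [sub_sub_cancel] at h6
  · intro a ha hne
    rw [Finset.mem_filter] at ha
    rcases lab_le hℓ hκ ha.2.le with h5 | h5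
    · have h6 : a.2 ≠ 0 := by
        intro h7
        have := ha.2
        rw [h5, h7] at this
        push_cast at this
        linarith
      rw [lab_pair h5, map_smul, appX_tn, LinearMap.proj_apply, mon_snd, e_one, Pi.pow_apply,
        hx2, zero_pow h6, zero_smul, smul_zero]
    · exact absurd h5 hne

end Vale.Agent.P207.N3.H575
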