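import Vale.Agent.P207.N3.H575.R2b

/-!
# P207, line N3, package P10: (R2), the critical case
-/

open AddMonoidAlgebra Finset Sum

set_option linter.unusedSectionVars false

namespace Vale.Agent.P207.N3.H575

open Vale.Agent.P207.N3.H254

variable {Y X : Type*} {m : ℕ} {κ ℓ h W : ℝ}

/-- The hypotheses of `crit` and `below` for the killed side. -/
theorem kill_reg (hℓ : 0 < ℓ) (hκ : ℓ < κ) (hW : 2 * κ < W) (hK : κ ≤ (m + 1 : ℕ) * ℓ)
    {S : Side (m + 1) Y} {S' : Side (m + 1) X} {V : Subalgebra ℝ (X → ℝ)}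
    (H' : TwoId κ ℓ h W S' S) (hy : ∃ y, S.v (inl (0, 1)) y ≠ 0)
    (hV : ∀ i, S'.v (inl (e i)) ∈ V) {b : ℕ} (hb : b * ℓ ≤ κ)
    (hT' : ∀ j : ℕ, 2 ≤ j → j < b → S'.v (inl (0, j)) ∈ V) {w : ℝ} (hw : w ≤ κ) :
    (∀ c, 1 ≤ len c → len c < b → wtl κ ℓ (inl c) ≤ w → S'.kill.v (inl c) ∈ V) ∧
    (∀ c, 1 ≤ len c → len c < b → wtl κ ℓ (inr c) ≤ w → S'.kill.v (inr c) ∈ V) := by
  constructor
  · intro c hc1 hc2 hc3
    rw [S'.kill_inl]
    rw [wtl_inl] at hc3
    rcases lab_le hℓ hκ (hc3.trans hw) with h2 | h2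
    · rw [lab_pair h2]
      have h3 : 1 ≤ c.2 := by
        unfold len at hc1
        omega
      rcases h3.lt_or_eq with h4 | h4
      · refine hT' c.2 h4 ?_
        unfold len at hc2
        omega
      · rw [← h4]
        exact hV 1
    · rw [h2]
      exact hV 0
  · intro c hc1 hc2 hc3
    by_cases h10 : c = (1, 0)
    · rw [h10, S'.kill_v0]
      exact V.zero_mem
    rw [wtl_inr] at hc3
    rcases lab_le hℓ hκ (hc3.trans hw) with h2 | h2
    · rw [S'.kill_v (by simpa using h10)]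
      have h3 : 1 ≤ c.2 := by
        unfold len at hc1
        omega
      have h4 : c.2 < b := by
        unfold len at hc2
        omega
      have h5 : (c.2 : ℝ) * ℓ < κ := by
        have : (c.2 : ℝ) + 1 ≤ b := by exact_mod_cast h4
        nlinarith
      rw [lab_pair h2]
      refine stepA hℓ hκ hW H' hy c.2 h3 ?_ h5 (upT hV fun j h6 h7 => hT' j h6 (by omega))
      have : (c.2 : ℝ) * ℓ < (m + 1 : ℕ) * ℓ := by linarith
      exact_mod_cast (lt_of_mul_lt_mul_right this hℓ.le).le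
    · exact absurd h2 h10

/-- **Case 2**: some `T'`-jet is not regular. -/
theorem caseC (hℓ : 0 < ℓ) (hκ : ℓ < κ) (hW : 2 * κ < W) {k : ℕ} (hk : κ = k * ℓ)
    (hkm : k ≤ m + 1) {S : Side (m + 1) Y} {S' : Side (m + 1) X}
    {U : Subalgebra ℝ (Y → ℝ)} {V : Subalgebra ℝ (X → ℝ)}
    (H : TwoId κ ℓ h W S S') (H' : TwoId κ ℓ h W S' S) (B : Base κ ℓ S U)
    (B' : Base κ ℓ S' V) {b : ℕ} (hb3 : 3 ≤ b) (hbk : b ≤ k)
    (hb : S'.v (inl (0, b)) ∉ V) (hlt : ∀ j : ℕ, 2 ≤ j → j < b → S'.v (inl (0, j)) ∈ V) :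
    S'.v (inr (1, 0)) ∈ V := by
  classical
  have hK : κ ≤ (m + 1 : ℕ) * ℓ := by
    rw [hk]
    have : (k : ℝ) ≤ (m + 1 : ℕ) := by exact_mod_cast hkm
    nlinarith
  have hbκ : (b : ℝ) * ℓ ≤ κ := by
    rw [hk]
    have : (b : ℝ) ≤ k := by exact_mod_cast hbk
    nlinarith
  -- the first irregular jet of the `y`-side
  have hex : ∃ a : ℕ, 2 ≤ a ∧ (S.v (inl (0, a)) ∉ U ∨ a = k) := ⟨k, by omega, Or.inr rfl⟩
  obtain ⟨a, ⟨ha2, hak⟩, hmin⟩ : ∃ a : ℕ, (2 ≤ a ∧ (S.v (inl (0, a)) ∉ U ∨ a = k)) ∧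
      ∀ j, 2 ≤ j → j < a → S.v (inl (0, j)) ∈ U ∧ j ≠ k := by
    refine ⟨Nat.find hex, Nat.find_spec hex, fun j h1 h2 => ?_⟩
    have := Nat.find_min hex h2
    push Not at this
    exact this h1
  have hak' : a ≤ k := by
    by_contra h1
    exact (hmin k (by omega) (by omega)).2 rfl
  have haκ : (a : ℝ) * ℓ ≤ κ := by
    rw [hk]
    have : (a : ℝ) ≤ k := by exact_mod_cast hak'
    nlinarith
  have hjl : ∀ j : ℕ, (j : ℝ) * ℓ < a * ℓ → j < a := fun j hj => by
    exact_mod_cast lt_of_mul_lt_mul_right hj hℓ.le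
  by_cases hab : a + b - 2 ≤ k
  · -- the critical coefficient
    exfalso
    have hw0 : ((a : ℝ) + b - 2) * ℓ ≤ κ := by
      rw [hk]
      have : ((a : ℝ) + b - 2) ≤ k := by
        have : ((a + b - 2 : ℕ) : ℝ) ≤ k := by exact_mod_cast hab
        rw [Nat.cast_sub (by omega)] at this
        push_cast at this
        exact this
      nlinarith
    have ha : S.v (inl (0, a)) ∉ U := by
      rcases hak with h1 | h1
      · exact h1
      · omega
    have hT1 : ∀ c, 1 ≤ len c → wtl κ ℓ (inl c) < a * ℓ → S.v (inl c) ∈ U := by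
      intro c hc1 hc2
      refine allT (w := wtl κ ℓ (inl c)) hℓ hκ B.mem (by linarith) (fun j h1 h2 => ?_) c hc1
        le_rfl
      exact (hmin j h1 (hjl j (by linarith))).1
    have hX1 := allX (w := a * ℓ) hℓ hκ hW hK H B'.p0 (B.mem 1) haκ fun j h1 h2 =>
      (hmin j h1 (hjl j h2)).1
    obtain ⟨hT', hX'⟩ := kill_reg (w := ((a : ℝ) + b - 2) * ℓ) hℓ hκ hW hK H' B.p0 B'.mem hbκ
      hlt hw0
    have h1 := crit (S := S) (S' := S'.kill) (n := a) (b := b) (U := U) (V := V) hℓ hκ h ha2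
      (by omega) (by omega) (by omega) (by linarith) (by linarith)
      (fun i => by rw [S'.kill_inl]; exact B'.mem i) hT1 hX1 hT' hX'
    have h2 := EN_kill (S := S) (S' := S') hℓ hκ.le (by omega) h (((a : ℝ) + b - 2) * ℓ) hw0
    rw [H.coeff (by linarith), zero_sub] at h2
    have h3 : ((EN κ ℓ S S'.kill h).coeff (((a : ℝ) + b - 2) * ℓ)).coeff
        (((a : ℝ) + b - 2) * ℓ) ∈ (fil U V).AP ⊔ (fil U V).AQ := by
      rw [neg_eq_iff_eq_neg] at h2
      rw [h2]
      refine Submodule.neg_mem _ (Submodule.mem_sup_left ?_)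
      split_ifs
      · exact tn_mem (DD_mem S S' B.mem _) Submodule.mem_top
      · exact zero_mem _
    have h4 := sub_mem h3 h1
    rw [sub_sub_cancel, S'.kill_inl, S'.kill_inl] at h4
    have hf : fac (0, a - 2) * fac (0, b - 2) ≠ 0 := (mul_pos (fac_pos _) (fac_pos _)).ne'
    have h5 := Submodule.smul_mem _ (fac (0, a - 2) * fac (0, b - 2))⁻¹ h4
    rw [smul_smul, inv_mul_cancel₀ hf, one_smul] at h5
    rcases tensor_rule h5 with h6 | h6
    · exact ha (B.div a ha2 haκ _ h6)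
    · rw [mul_comm] at h6
      exact hb (B'.div b (by omega) hbκ _ h6)
  · -- below the critical coefficient
    have hT0 : ∀ j : ℕ, 2 ≤ j → j * ℓ < a * ℓ →
        S.v (inl (0, j)) ∈ only (S.v (inl (0, 1))) := by
      intro j h1 h2
      have h3 := (hmin j h1 (hjl j h2)).1
      exact mem_only.2 (B.hom j h1 (by linarith) h3)
    have hU1 : S.v (inl (0, 1)) ∈ only (S.v (inl (0, 1))) := mem_only.2 fun _ _ h => h
    have hT1 : ∀ c, 1 ≤ len c → wtl κ ℓ (inl c) < a * ℓ →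
        S.v (inl c) ∈ only (S.v (inl (0, 1))) := by
      intro c hc1 hc2
      rw [wtl_inl] at hc2
      have h2 : c.1 = 0 := lab_lt hℓ hκ (by linarith)
      rw [lab_pair h2]
      have h3 : 1 ≤ c.2 := by
        unfold len at hc1
        omega
      rcases h3.lt_or_eq with h4 | h4
      · refine hT0 c.2 h4 ?_
        rw [h2, Nat.cast_zero, mul_zero, zero_add, mul_comm] at hc2
        exact hc2
      · rw [← h4]
        exact hU1
    have hX1 := allX (w := a * ℓ) hℓ hκ hW hK H B'.p0 hU1 haκ hT0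
    obtain ⟨hT', hX'⟩ := kill_reg (w := κ) hℓ hκ hW hK H' B.p0 B'.mem hbκ hlt le_rfl
    have hwlt : κ < ((a : ℝ) + b - 2) * ℓ := by
      rw [hk]
      have : (k : ℝ) < (a : ℝ) + b - 2 := by
        have h1 : k < a + b - 2 := by omega
        have : (k : ℝ) < ((a + b - 2 : ℕ) : ℝ) := by exact_mod_cast h1
        rw [Nat.cast_sub (by omega)] at this
        push_cast at this
        exact this
      nlinarith
    have h1 := below (S := S) (S' := S'.kill) (n := a) (b := b)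
      (U := only (S.v (inl (0, 1)))) (V := V) (W := κ) hℓ hκ h ha2
      (by omega) hT1 hX1 hT' hX' (w := κ) (w' := κ) hwlt le_rfl
    have h2 := EN_kill (S := S) (S' := S') hℓ hκ.le (by omega) h κ (le_refl κ)
    rw [H.coeff (by linarith), zero_sub, if_pos rfl] at h2
    have h3 : tn (DD κ ℓ S S' κ) (S'.v (inr (1, 0))) ∈
        sp (Subalgebra.toSubmodule (only (S.v (inl (0, 1))))) ⊤ ⊔
          sp ⊤ (Subalgebra.toSubmodule V) := by
      rw [← h2]
      exact Submodule.neg_mem _ h1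
    rcases tensor_rule h3 with h4 | h4
    · exact absurd h4 (DD_nin hℓ hκ (by omega) S' B)
    · exact h4

end Vale.Agent.P207.N3.H575
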