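import Vale.Agent.P207.N3.H575.R2c

/-!
# P207, line N3, package P10: (R2)
-/

open AddMonoidAlgebra Finset Sum

set_option linter.unusedSectionVars false

namespace Vale.Agent.P207.N3.H575

open Vale.Agent.P207.N3.H254

variable {Y X : Type*} {K m : ℕ} {κ ℓ h W : ℝ}

/-! ### `κ` not a multiple of `ℓ` -/

/-- The length of a label of the two sides. -/
def lenL : Lb ⊕ Lb → ℕ := Sum.elim (Sum.elim len len) (Sum.elim len len)

theorem pK_var (h : ℝ) (S : Side K Y) (S' : Side K X) {α : (Lb ⊕ Lb) →₀ ℕ}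
    (hα : α ∈ (pK h S S').support) {j : Lb ⊕ Lb} (hj : j ∈ α.support) : 1 ≤ lenL j := by
  classical
  have hP : ∀ a, MvPolynomial.rename (inl : Lb → Lb ⊕ Lb) (S.P a) ∈
      MvPolynomial.supported ℝ {j : Lb ⊕ Lb | 1 ≤ lenL j} := by
    intro a
    rw [MvPolynomial.mem_supported]
    intro j hj
    have h1 := MvPolynomial.vars_rename _ _ (Finset.mem_coe.1 hj)
    obtain ⟨i, hi, rfl⟩ := Finset.mem_image.1 h1
    obtain ⟨d, hd, hid⟩ := (MvPolynomial.mem_vars i).1 hi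
    obtain ⟨b, rfl, h2, -⟩ := S.P_var hd hid
    exact h2
  have hQ : ∀ a, MvPolynomial.rename (inl : Lb → Lb ⊕ Lb) (S.Q a) ∈
      MvPolynomial.supported ℝ {j : Lb ⊕ Lb | 1 ≤ lenL j} := by
    intro a
    rw [MvPolynomial.mem_supported]
    intro j hj
    have h1 := MvPolynomial.vars_rename _ _ (Finset.mem_coe.1 hj)
    obtain ⟨i, hi, rfl⟩ := Finset.mem_image.1 h1
    obtain ⟨d, hd, hid⟩ := (MvPolynomial.mem_vars i).1 hi
    obtain ⟨b, rfl | rfl, h2, -⟩ := S.Q_var hd hid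
    · exact h2
    · exact h2
  have hP' : ∀ a, MvPolynomial.rename (inr : Lb → Lb ⊕ Lb) (S'.P a) ∈
      MvPolynomial.supported ℝ {j : Lb ⊕ Lb | 1 ≤ lenL j} := by
    intro a
    rw [MvPolynomial.mem_supported]
    intro j hj
    have h1 := MvPolynomial.vars_rename _ _ (Finset.mem_coe.1 hj)
    obtain ⟨i, hi, rfl⟩ := Finset.mem_image.1 h1
    obtain ⟨d, hd, hid⟩ := (MvPolynomial.mem_vars i).1 hi
    obtain ⟨b, rfl, h2, -⟩ := S'.P_var hd hid
    exact h2
  have hQ' : ∀ a, MvPolynomial.rename (inr : Lb → Lb ⊕ Lb) (S'.Q a) ∈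
      MvPolynomial.supported ℝ {j : Lb ⊕ Lb | 1 ≤ lenL j} := by
    intro a
    rw [MvPolynomial.mem_supported]
    intro j hj
    have h1 := MvPolynomial.vars_rename _ _ (Finset.mem_coe.1 hj)
    obtain ⟨i, hi, rfl⟩ := Finset.mem_image.1 h1
    obtain ⟨d, hd, hid⟩ := (MvPolynomial.mem_vars i).1 hi
    obtain ⟨b, rfl | rfl, h2, -⟩ := S'.Q_var hd hid
    · exact h2
    · exact h2
  have h1 := EK_memS (MvPolynomial.supported ℝ {j : Lb ⊕ Lb | 1 ≤ lenL j}) (K := K) h hP hQ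
    hP' hQ'
  have h2 := MvPolynomial.mem_supported.1 h1
  exact h2 (Finset.mem_coe.2 ((MvPolynomial.mem_vars j).2 ⟨α, hα, hj⟩))

/-- The label of `x`-weight `κ`. -/
theorem only10 (hℓ : 0 < ℓ) (hκ : ℓ < κ) (hn : ∀ n : ℕ, κ ≠ n * ℓ) {α : (Lb ⊕ Lb) →₀ ℕ}
    (hα : ∀ j ∈ α.support, 1 ≤ lenL j) (hw : wm (Sum.elim 0 (wtl κ ℓ)) α = κ) {j : Lb}
    (hj : inr j ∈ α.support) : j = inl (1, 0) ∨ j = inr (1, 0) := by
  classical
  set wt : Lb ⊕ Lb → ℝ := Sum.elim 0 (wtl κ ℓ) with hwt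
  -- the pair of a label
  let pr : Lb → ℕ × ℕ := Sum.elim id id
  have hwtl : ∀ i : Lb, wtl κ ℓ i = κ * (pr i).1 + ℓ * (pr i).2 := by
    rintro (i | i) <;> rfl
  have hpos : ∀ i : Lb, inr i ∈ α.support → ℓ ≤ wtl κ ℓ i := by
    intro i hi
    have h1 := hα _ hi
    rw [hwtl]
    refine wtl_ge hℓ hκ.le ?_
    rcases i with i | i <;> exact h1
  have hnn : ∀ i ∈ α.support, 0 ≤ (α i : ℝ) * wt i := by
    intro i hi
    rcases i with i | i
    · show 0 ≤ (α (inl i) : ℝ) * 0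
      rw [mul_zero]
    · exact mul_nonneg (Nat.cast_nonneg _) (hℓ.le.trans (hpos i hi))
  have hle : ∀ i ∈ α.support, (α i : ℝ) * wt i ≤ κ := by
    intro i hi
    rw [← hw]
    exact Finset.single_le_sum (f := fun i => (α i : ℝ) * wt i) hnn hi
  have hge1 : ∀ i ∈ α.support, (1 : ℝ) ≤ α i := by
    intro i hi
    exact_mod_cast Nat.one_le_iff_ne_zero.2 (Finsupp.mem_support_iff.1 hi)
  have hwle : ∀ i : Lb, inr i ∈ α.support → wtl κ ℓ i ≤ κ := by
    intro i hi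
    have h1 := hle _ hi
    have h2 := hge1 _ hi
    have h3 := hpos i hi
    have h4 : wt (inr i) = wtl κ ℓ i := rfl
    rw [h4] at h1
    nlinarith
  have hcase : ∀ i : Lb, inr i ∈ α.support → (pr i).1 = 0 ∨ pr i = (1, 0) := by
    intro i hi
    have := hwle i hi
    rw [hwtl] at this
    exact lab_le hℓ hκ this
  have hex : ∃ i : Lb, inr i ∈ α.support ∧ pr i = (1, 0) := by
    by_contra hc
    push Not at hc
    have h1 : ∀ i ∈ α.support, (α i : ℝ) * wt i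
        = ((α i * Sum.elim (fun _ => 0) (fun i => (pr i).2) i : ℕ) : ℝ) * ℓ := by
      intro i hi
      rcases i with i | i
      · show (α (inl i) : ℝ) * 0 = ((α (inl i) * 0 : ℕ) : ℝ) * ℓ
        simp
      · have h2 : (pr i).1 = 0 := (hcase i hi).resolve_right (hc i hi)
        have h4 : wt (inr i) = wtl κ ℓ i := rfl
        rw [h4, hwtl, h2]
        show (α (inr i) : ℝ) * (κ * (0 : ℕ) + ℓ * (pr i).2) = ((α (inr i) * (pr i).2 : ℕ) : ℝ) * ℓ
        push_cast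
        ring
    have h2 := hw
    unfold wm at h2
    rw [Finset.sum_congr rfl h1, ← Finset.sum_mul, ← Nat.cast_sum] at h2
    exact hn _ h2.symm
  obtain ⟨i, hi, hpi⟩ := hex
  have hwi : wtl κ ℓ i = κ := by
    rw [hwtl, hpi]
    push_cast
    ring
  by_cases hij : j = i
  · rw [hij]
    rcases i with i | i
    · left; exact congrArg inl hpi
    · right; exact congrArg inr hpi
  · exfalso
    have h1 : wm wt α = (α (inr i) : ℝ) * wt (inr i)
        + ∑ x ∈ α.support.erase (inr i), (α x : ℝ) * wt x := by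
      unfold wm
      exact (Finset.add_sum_erase _ _ hi).symm
    have h2 : (α (inr j) : ℝ) * wt (inr j)
        ≤ ∑ x ∈ α.support.erase (inr i), (α x : ℝ) * wt x :=
      Finset.single_le_sum (f := fun x => (α x : ℝ) * wt x)
        (fun x hx => hnn x (Finset.mem_of_mem_erase hx))
        (Finset.mem_erase.2 ⟨fun h => hij (Sum.inr_injective h), hj⟩)
    have h3 := hge1 _ hi
    have h4 := hge1 _ hj
    have h5 := hpos j hj
    have h6 : wt (inr i) = κ := hwi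
    have h7 : wt (inr j) = wtl κ ℓ j := rfl
    rw [hw, h6] at h1
    rw [h7] at h2
    have h8 : κ ≤ (α (inr i) : ℝ) * κ := by nlinarith
    nlinarith

/-- **Case 3**: `κ` is not a multiple of `ℓ`. -/
theorem caseN (hℓ : 0 < ℓ) (hκ : ℓ < κ) (hW : 2 * κ < W) (hK : 1 ≤ K)
    (hn : ∀ n : ℕ, κ ≠ n * ℓ) {S : Side K Y} {S' : Side K X} {V : Subalgebra ℝ (X → ℝ)}
    (H : TwoId κ ℓ h W S S') (hV : ∀ i, S'.v (inl (e i)) ∈ V)
    (hy : ∃ y, S.v (inl (1, 0)) y ≠ 0) : S'.v (inr (1, 0)) ∈ V := by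
  classical
  have h1 : ((EN κ ℓ S S'.kill h).coeff κ).coeff κ ∈
      sp (⊤ : Submodule ℝ (Y → ℝ)) (Subalgebra.toSubmodule V) := by
    have e1 : ((EN κ ℓ S S'.kill h).coeff κ).coeff κ
        = ∑ α ∈ (pK h S S'.kill).support.filter (fun α => wm (Sum.elim (wtl κ ℓ) 0) α = κ ∧
          wm (Sum.elim 0 (wtl κ ℓ)) α = κ), (pK h S S'.kill).coeff α •
            (vm (fun j => Sum.elim (fun j => (fy (S.v j) : Y × X → ℝ))
              (fun j => fx (S'.kill.v j)) j) α) := by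
      funext z
      obtain ⟨y, x⟩ := z
      rw [EN_eq, sub2_coeff, Finset.sum_apply]
      refine Finset.sum_congr rfl fun α _ => ?_
      rw [Pi.smul_apply, smul_eq_mul]
      congr 1
      have := vm_map (Pi.evalAlgHom ℝ (fun _ : Y × X => ℝ) (y, x))
        (fun j => Sum.elim (fun j => (fy (S.v j) : Y × X → ℝ)) (fun j => fx (S'.kill.v j)) j) α
      rw [Pi.evalAlgHom_apply] at this
      rw [this]
      congr 1
      funext j
      rcases j with j | j <;> rfl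
    rw [e1]
    refine Submodule.sum_mem _ fun α hα => Submodule.smul_mem _ _ ?_
    rw [Finset.mem_filter] at hα
    set F := fil (⊤ : Subalgebra ℝ (Y → ℝ)) V with hF
    have hFQ : F.AQ = sp (⊤ : Submodule ℝ (Y → ℝ)) (Subalgebra.toSubmodule V) := rfl
    rw [← hFQ]
    refine vm_mem F.AQ (F.leQ F.one) F.mulQ _ _ fun j hj => ?_
    rcases j with j | j
    · exact fy_memQ _
    · rcases only10 hℓ hκ hn (fun i hi => pK_var h S S'.kill hα.1 hi) hα.2.2 hj with h2 | h2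
      · rw [h2]
        refine F.leQ (fx_mem ?_)
        rw [S'.kill_inl]
        exact hV 0
      · rw [h2]
        refine F.leQ (fx_mem ?_)
        rw [S'.kill_v0]
        exact V.zero_mem
  have h2 := EN_kill (S := S) (S' := S') hℓ hκ.le hK h κ (le_refl κ)
  rw [H.coeff (by linarith), zero_sub, if_pos rfl] at h2
  have h3 : DD κ ℓ S S' κ = S.v (inl (1, 0)) := by
    have hmem : ((1, 0) : ℕ × ℕ) ∈ tri K := mem_tri.2 (by simpa using hK)
    have h1 : fac (1, 0) = 1 := by unfold fac; simp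
    have h2 : mX S' (1, 0) = 1 := S'.Q_one (1, 0) (by decide) (by show 1 + 0 ≤ K; omega)
    unfold DD
    rw [← Finset.add_sum_erase _ _ hmem, h1, h2]
    have h3 : κ * ((1, 0) : ℕ × ℕ).1 + ℓ * ((1, 0) : ℕ × ℕ).2 = κ := by push_cast; ring
    rw [if_pos h3, one_mul, one_smul, mon_10, e_zero, Finset.sum_eq_zero, add_zero]
    intro c hc
    rw [Finset.mem_erase] at hc
    rw [if_neg, smul_zero]
    intro h4
    rcases lab_le hℓ hκ h4.le with h5 | h5
    · rw [h5, Nat.cast_zero, mul_zero, zero_add, mul_comm] at h4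
      exact hn _ h4.symm
    · exact hc.1 h5
  rw [h3] at h2
  obtain ⟨y, hy⟩ := hy
  refine right_mem (U := (⊤ : Submodule ℝ (Y → ℝ))) (V := Subalgebra.toSubmodule V)
    (u := S.v (inl (1, 0))) (v := S'.v (inr (1, 0))) ?_ hy
  rw [← h2]
  exact Submodule.neg_mem _ h1

/-- **(R2)**: if `T'^_(0,2)` is regular then `X'^_(1,0)` is regular. -/
theorem R2 (hℓ : 0 < ℓ) (hκ : ℓ < κ) (hW : 2 * κ < W) (hK : κ ≤ (m + 1 : ℕ) * ℓ)
    {S : Side (m + 1) Y} {S' : Side (m + 1) X}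
    {U : Subalgebra ℝ (Y → ℝ)} {V : Subalgebra ℝ (X → ℝ)}
    (H : TwoId κ ℓ h W S S') (H' : TwoId κ ℓ h W S' S) (B : Base κ ℓ S U)
    (B' : Base κ ℓ S' V) (h02 : S'.v (inl (0, 2)) ∈ V) : S'.v (inr (1, 0)) ∈ V := by
  classical
  by_cases hn : ∃ n : ℕ, κ = n * ℓ
  · obtain ⟨k, hk⟩ := hn
    have hkm : k ≤ m + 1 := by
      rw [hk] at hK
      exact_mod_cast le_of_mul_le_mul_right hK hℓ
    by_cases hex : ∃ b : ℕ, 2 ≤ b ∧ b ≤ k ∧ S'.v (inl (0, b)) ∉ V
    · obtain ⟨b, ⟨hb2, hbk, hb⟩, hmin⟩ : ∃ b : ℕ, (2 ≤ b ∧ b ≤ k ∧ S'.v (inl (0, b)) ∉ V) ∧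
          ∀ j, j < b → ¬ (2 ≤ j ∧ j ≤ k ∧ S'.v (inl (0, j)) ∉ V) :=
        ⟨Nat.find hex, Nat.find_spec hex, fun j => Nat.find_min hex⟩
      have hb3 : 3 ≤ b := by
        rcases hb2.lt_or_eq with h1 | h1
        · exact h1
        · exact absurd (h1 ▸ h02) hb
      refine caseC hℓ hκ hW hk hkm H H' B B' hb3 hbk hb fun j h1 h2 => ?_
      by_contra h3
      exact hmin j h2 ⟨h1, by omega, h3⟩
    · push Not at hex
      refine caseB hℓ hκ hW hK H' B'.mem B.p0 B.p1 fun j h1 h2 => hex j h1 ?_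
      rw [hk] at h2
      exact_mod_cast le_of_mul_le_mul_right h2 hℓ
  · push Not at hn
    obtain ⟨y, hy, -⟩ := B.p1
    exact caseN hℓ hκ hW (by omega) hn H B'.mem ⟨y, hy⟩

end Vale.Agent.P207.N3.H575
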